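import Mathlib

/-! The calibration kernel for the sharp one dimensional Lieb-Thirring inequality at `γ = 1`. -/

open Real Set Filter Topology Polynomial

namespace Vale.Agent.P371h11

/-- the calibration function `q(z) = (π/4) cot(π z / 2)` -/
noncomputable def qq (z : ℝ) : ℝ := π / 4 * (cos (π * z / 2) / sin (π * z / 2))

/-- its derivative on `(0,2)` -/
noncomputable def qq' (z : ℝ) : ℝ := -(π ^ 2 / 8) / sin (π * z / 2) ^ 2

lemma sin_pos_of_mem {z : ℝ} (h0 : 0 < z) (h2 : z < 2) : 0 < sin (π * z / 2) := by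
  apply sin_pos_of_pos_of_lt_pi
  · have := pi_pos
    positivity
  · have := pi_pos
    nlinarith

lemma hasDerivAt_qq {z : ℝ} (h0 : 0 < z) (h2 : z < 2) : HasDerivAt qq (qq' z) z := by
  have hs := sin_pos_of_mem h0 h2
  have h1 : HasDerivAt (fun z : ℝ => π * z / 2) (π / 2) z := by
    have := ((hasDerivAt_id z).const_mul π).div_const 2
    simpa using this
  have hc : HasDerivAt (fun z : ℝ => cos (π * z / 2)) (-sin (π * z / 2) * (π / 2)) z :=
    (hasDerivAt_cos _).comp z h1
  have hsn : HasDerivAt (fun z : ℝ => sin (π * z / 2)) (cos (π * z / 2) * (π / 2)) z :=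
    (hasDerivAt_sin _).comp z h1
  have h2' := ((hc.div hsn hs.ne').const_mul (π / 4))
  refine h2'.congr_deriv ?_
  unfold qq'
  have hsc := sin_sq_add_cos_sq (π * z / 2)
  field_simp
  nlinarith [hsc]

lemma continuousOn_qq' {a b : ℝ} (ha : 0 < a) (hb : b < 2) : ContinuousOn qq' (Icc a b) := by
  unfold qq'
  apply ContinuousOn.div continuousOn_const (by fun_prop)
  intro z hz
  have := sin_pos_of_mem (ha.trans_le hz.1) (hz.2.trans_lt hb)
  positivity

lemma continuousOn_qq {a b : ℝ} (ha : 0 < a) (hb : b < 2) : ContinuousOn qq (Icc a b) := fun z hz =>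
  (hasDerivAt_qq (ha.trans_le hz.1) (hz.2.trans_lt hb)).continuousAt.continuousWithinAt

lemma mul_cos_le_sin {d : ℝ} (h0 : 0 < d) (h1 : d < π) : d * cos d ≤ sin d := by
  have hs : 0 < sin d := sin_pos_of_pos_of_lt_pi h0 h1
  rcases lt_or_ge d (π / 2) with h | h
  · have hc : 0 < cos d := cos_pos_of_mem_Ioo ⟨by linarith [pi_pos], h⟩
    have := lt_tan h0 h
    rw [tan_eq_sin_div_cos, lt_div_iff₀ hc] at this
    exact this.le
  · have hc : cos d ≤ 0 := cos_nonpos_of_pi_div_two_le_of_le h (by linarith [pi_pos])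
    nlinarith

lemma cos_le_sinc {d : ℝ} (h0 : d ≠ 0) (h1 : |d| < π) : cos d ≤ sin d / d := by
  rcases lt_or_gt_of_ne h0 with h | h
  · have h2 : 0 < -d := by linarith
    have h3 : -d < π := by
      rw [abs_of_neg h] at h1
      exact h1
    have h4 := mul_cos_le_sin h2 h3
    rw [cos_neg, sin_neg] at h4
    rw [le_div_iff_of_neg h]
    nlinarith
  · have h3 : d < π := by
      rw [abs_of_pos h] at h1
      exact h1
    have h4 := mul_cos_le_sin h h3
    rw [le_div_iff₀ h]
    linarith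

/-- **The kernel inequality** for `q`. -/
lemma kernel_qq {y y' : ℝ} (h0 : 0 < y) (h2 : y < 2) (h0' : 0 < y') (h2' : y' < 2) (hne : y ≠ y') :
    4 * qq y * qq y' + 2 * ((qq y - qq y') / (y - y')) + π ^ 2 / 4 ≤ 0 := by
  have hs := sin_pos_of_mem h0 h2
  have hs' := sin_pos_of_mem h0' h2'
  set a : ℝ := π * y / 2 with ha
  set a' : ℝ := π * y' / 2 with ha'
  set d : ℝ := a - a' with hd
  have hp := pi_pos
  have hd0 : d ≠ 0 := by
    intro h
    apply hne
    have : π * y / 2 = π * y' / 2 := by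
      rw [← ha, ← ha']
      linarith
    have h3 : π * y = π * y' := by linarith
    exact mul_left_cancel₀ hp.ne' h3
  have hdy : y - y' = 2 * d / π := by
    rw [hd, ha, ha']
    field_simp
  have hdabs : |d| < π := by
    rw [abs_lt]
    rw [hd, ha, ha']
    constructor <;> nlinarith
  have hc := cos_le_sinc hd0 hdabs
  have hy : y - y' ≠ 0 := sub_ne_zero.2 hne
  have e1 : qq y - qq y' = -(π / 4) * sin d / (sin a * sin a') := by
    unfold qq
    rw [← ha, ← ha', hd, sin_sub]
    field_simp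
    ring
  have e2 : cos d = cos a * cos a' + sin a * sin a' := by
    rw [hd, cos_sub]
  rw [e1, hdy]
  have e3 : 4 * qq y * qq y' + 2 * (-(π / 4) * sin d / (sin a * sin a') / (2 * d / π)) + π ^ 2 / 4 =
      π ^ 2 / 4 * ((cos d - sin d / d) / (sin a * sin a')) := by
    unfold qq
    rw [← ha, ← ha', e2]
    field_simp
    ring
  rw [e3]
  have h5 : (cos d - sin d / d) / (sin a * sin a') ≤ 0 :=
    div_nonpos_of_nonpos_of_nonneg (by linarith) (by positivity)
  have h6 : 0 ≤ π ^ 2 / 4 := by positivity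
  exact mul_nonpos_of_nonneg_of_nonpos h6 h5

/-- existence of polynomial antiderivatives -/
lemma exists_antideriv (r : ℝ[X]) : ∃ P : ℝ[X], derivative P = r := by
  induction r using Polynomial.induction_on' with
  | add p q hp hq =>
    obtain ⟨P, hP⟩ := hp
    obtain ⟨Q, hQ⟩ := hq
    exact ⟨P + Q, by rw [derivative_add, hP, hQ]⟩
  | monomial n a =>
    refine ⟨monomial (n + 1) (a / (n + 1)), ?_⟩
    rw [derivative_monomial]
    have : (n + 1 : ℕ) - 1 = n := by omega
    simp only [Nat.add_sub_cancel]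
    congr 1
    push_cast
    have h : ((n : ℝ) + 1) ≠ 0 := by positivity
    field_simp

/-- `C¹` approximation of `q` by a polynomial: values and divided differences. -/
lemma exists_poly_near {δ η : ℝ} (hδ : 0 < δ) (hδ1 : δ < 1) (hη : 0 < η) :
    ∃ p : ℝ[X], (∀ z ∈ Icc δ (2 - δ), |p.eval z - qq z| ≤ η) ∧
      (∀ y ∈ Icc δ (2 - δ), ∀ y' ∈ Icc δ (2 - δ),
        |(p.eval y - qq y) - (p.eval y' - qq y')| ≤ η * |y - y'|) := by
  obtain ⟨r, hr⟩ := exists_polynomial_near_of_continuousOn δ (2 - δ) qq'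
    (continuousOn_qq' hδ (by linarith)) η hη
  obtain ⟨P, hP⟩ := exists_antideriv r
  set p : ℝ[X] := P + C (qq 1 - P.eval 1) with hp
  have hpd : derivative p = r := by
    rw [hp, derivative_add, derivative_C, add_zero, hP]
  set f : ℝ → ℝ := fun z => p.eval z - qq z with hf
  have hfd : ∀ z ∈ Icc δ (2 - δ), HasDerivWithinAt f (r.eval z - qq' z) (Icc δ (2 - δ)) z := by
    intro z hz
    have h1 := (hasDerivAt_qq (hδ.trans_le hz.1) (by linarith [hz.2])).hasDerivWithinAt
      (s := Icc δ (2 - δ))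
    have h2 := (p.hasDerivAt z).hasDerivWithinAt (s := Icc δ (2 - δ))
    rw [hpd] at h2
    exact h2.sub h1
  have hfb : ∀ z ∈ Icc δ (2 - δ), ‖r.eval z - qq' z‖ ≤ η := by
    intro z hz
    rw [Real.norm_eq_abs]
    exact (hr z hz).le
  have hconv : Convex ℝ (Icc δ (2 - δ)) := convex_Icc _ _
  have hmv : ∀ y ∈ Icc δ (2 - δ), ∀ y' ∈ Icc δ (2 - δ), |f y - f y'| ≤ η * |y - y'| := by
    intro y hy y' hy'
    have := hconv.norm_image_sub_le_of_norm_hasDerivWithin_le hfd hfb hy' hy
    simpa [Real.norm_eq_abs] using this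
  have h1mem : (1 : ℝ) ∈ Icc δ (2 - δ) := ⟨hδ1.le, by linarith⟩
  have hf1 : f 1 = 0 := by
    simp only [hf, hp, eval_add, eval_C]
    ring
  refine ⟨p, ?_, hmv⟩
  intro z hz
  have h2 := hmv z hz 1 h1mem
  rw [hf1, sub_zero] at h2
  refine h2.trans ?_
  have h3 : |z - 1| ≤ 1 := by
    rw [abs_le]
    constructor <;> linarith [hz.1, hz.2]
  nlinarith

/-- The kernel inequality for a polynomial close to `q`. -/
lemma exists_poly_kernel {δ K : ℝ} (hδ : 0 < δ) (hδ1 : δ < 1) (hK : K < π ^ 2 / 4) :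
    ∃ p : ℝ[X], ∀ y ∈ Icc δ (2 - δ), ∀ y' ∈ Icc δ (2 - δ), y ≠ y' →
      4 * p.eval y * p.eval y' + 2 * ((p.eval y - p.eval y') / (y - y')) + K ≤ 0 := by
  obtain ⟨M, hM⟩ := (isCompact_Icc (a := δ) (b := 2 - δ)).exists_bound_of_continuousOn
    (continuousOn_qq hδ (by linarith))
  have hM0 : 0 ≤ M := (norm_nonneg _).trans (hM 1 ⟨hδ1.le, by linarith⟩)
  set gap : ℝ := π ^ 2 / 4 - K with hgap
  have hgap0 : 0 < gap := by
    rw [hgap]
    linarith
  set η : ℝ := min 1 (gap / (8 * M + 6)) with hη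
  have hη0 : 0 < η := lt_min one_pos (by positivity)
  have hη1 : η ≤ 1 := min_le_left _ _
  have hη2 : η * (8 * M + 6) ≤ gap := by
    have := min_le_right 1 (gap / (8 * M + 6))
    rw [← hη] at this
    rwa [le_div_iff₀ (by positivity)] at this
  obtain ⟨p, hp1, hp2⟩ := exists_poly_near hδ hδ1 hη0
  refine ⟨p, ?_⟩
  intro y hy y' hy' hne
  have hk := kernel_qq (hδ.trans_le hy.1) (by linarith [hy.2]) (hδ.trans_le hy'.1)
    (by linarith [hy'.2]) hne
  have hq1 : |qq y| ≤ M := by simpa [Real.norm_eq_abs] using hM y hy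
  have hq2 : |qq y'| ≤ M := by simpa [Real.norm_eq_abs] using hM y' hy'
  have hd1 := hp1 y hy
  have hd2 := hp1 y' hy'
  have hdd := hp2 y hy y' hy'
  have hyy : 0 < |y - y'| := abs_pos.2 (sub_ne_zero.2 hne)
  -- the product
  set u := p.eval y - qq y with hu
  set v := p.eval y' - qq y' with hv
  have e1 : p.eval y = qq y + u := by rw [hu]; ring
  have e2 : p.eval y' = qq y' + v := by rw [hv]; ring
  have hprod : 4 * p.eval y * p.eval y' ≤ 4 * qq y * qq y' + η * (8 * M + 4) := by
    rw [e1, e2]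
    have h3 : |qq y * v| ≤ M * η := by
      rw [abs_mul]
      exact mul_le_mul hq1 hd2 (abs_nonneg _) hM0
    have h4 : |u * qq y'| ≤ η * M := by
      rw [abs_mul]
      exact mul_le_mul hd1 hq2 (abs_nonneg _) hη0.le
    have h5 : |u * v| ≤ η * η := by
      rw [abs_mul]
      exact mul_le_mul hd1 hd2 (abs_nonneg _) hη0.le
    have h6 := (abs_le.1 h3).2
    have h7 := (abs_le.1 h4).2
    have h8 := (abs_le.1 h5).2
    nlinarith
  have hdiv : (p.eval y - p.eval y') / (y - y') ≤ (qq y - qq y') / (y - y') + η := by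
    have e3 : (p.eval y - p.eval y') / (y - y') = (qq y - qq y') / (y - y') + (u - v) / (y - y') := by
      rw [e1, e2]
      have hy0 : y - y' ≠ 0 := sub_ne_zero.2 hne
      field_simp
      ring
    rw [e3]
    have h9 : (u - v) / (y - y') ≤ η := by
      have h10 : |(u - v) / (y - y')| ≤ η := by
        rw [abs_div, div_le_iff₀ hyy]
        exact hdd
      exact (abs_le.1 h10).2
    linarith
  have : η * (8 * M + 4) + 2 * η ≤ gap := by nlinarith
  rw [hgap] at this
  nlinarith

end Vale.Agent.P371h11
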